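import Vale.Agent.P032.H800.W32.A0
import Vale.Agent.P032.H800.W32.A1
import Vale.Agent.P032.H800.W32.A2

/-!
# P032: hexagons around a centre with six colours, box tables (W32, table A)
-/

open Vale.Agent.P032.Words.Trie

namespace Vale.Agent.P032.H800.W32.A

theorem cs : ∀ p < D.N, csP D J T p = true := by
  intro p hp
  have hp : p < 17 := hp
  interval_cases p
  · exact c0
  · exact c1
  · exact c2
  · exact c3
  · exact c4
  · exact c5
  · exact c6
  · exact c7
  · exact c8
  · exact c9
  · exact c10
  · exact c11
  · exact c12
  · exact c13
  · exact c14
  · exact c15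
  · exact c16

/-- the box table -/
theorem tab : BoxTab D := boxTab_of (by decide) (by decide) k0 cs

end Vale.Agent.P032.H800.W32.A
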