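import Vale.Agent.P032.H800.W32.BD

/-!
# P032: hexagons around a centre with six colours, box tables (W32, rows B2)
-/

open Vale.Agent.P032.Words.Trie

namespace Vale.Agent.P032.H800.W32.B

theorem c2 : csP D J T 2 = true := by decide +kernel
theorem c5 : csP D J T 5 = true := by decide +kernel
theorem c8 : csP D J T 8 = true := by decide +kernel
theorem c11 : csP D J T 11 = true := by decide +kernel
theorem c14 : csP D J T 14 = true := by decide +kernel

end Vale.Agent.P032.H800.W32.B
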