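import Vale.Agent.P032.H800.W32.BD

/-!
# P032: hexagons around a centre with six colours, box tables (W32, rows B0)
-/

open Vale.Agent.P032.Words.Trie

namespace Vale.Agent.P032.H800.W32.B

theorem k0 : chkQ0 D J R 28 T = true := by decide +kernel
theorem c0 : csP D J T 0 = true := by decide +kernel
theorem c3 : csP D J T 3 = true := by decide +kernel
theorem c6 : csP D J T 6 = true := by decide +kernel
theorem c9 : csP D J T 9 = true := by decide +kernel
theorem c12 : csP D J T 12 = true := by decide +kernel
theorem c15 : csP D J T 15 = true := by decide +kernel

end Vale.Agent.P032.H800.W32.B
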